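import Mathlib

/-!
# Asymptotic moduli

The moduli of asymptotic uniform convexity and of asymptotic midpoint uniform convexity of a
function `N` on a real normed space (used for norms equivalent to the given one).
-/

namespace P069

variable {X : Type} [NormedAddCommGroup X] [NormedSpace ℝ X]

/-- `F` is a closed subspace of `X` of finite codimension, i.e. a member of `cof(X)`. -/
def IsCof (F : Submodule ℝ X) : Prop :=
  IsClosed (F : Set X) ∧ Module.Finite ℝ (X ⧸ F)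

/-- The modulus `δ̄_N(t) = inf_{N x = 1} sup_{F ∈ cof X} inf_{y ∈ F, N y = 1} (N (x + t y) - 1)`. -/
noncomputable def deltaBar (N : X → ℝ) (t : ℝ) : ℝ :=
  ⨅ x : {x : X // N x = 1}, ⨆ F : {F : Submodule ℝ X // IsCof F},
    ⨅ y : {y : X // y ∈ F.1 ∧ N y = 1}, (N (x.1 + t • y.1) - 1)

/-- The modulus
`m_N(t) = inf_{N x = 1} sup_{F ∈ cof X} inf_{y ∈ F, N y = 1} (max (N (x + t y)) (N (x - t y)) - 1)`. -/
noncomputable def midModulus (N : X → ℝ) (t : ℝ) : ℝ :=
  ⨅ x : {x : X // N x = 1}, ⨆ F : {F : Submodule ℝ X // IsCof F},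
    ⨅ y : {y : X // y ∈ F.1 ∧ N y = 1}, (max (N (x.1 + t • y.1)) (N (x.1 - t • y.1)) - 1)

/-- `N` is asymptotically uniformly convex. -/
def IsAUC (N : X → ℝ) : Prop := ∀ t : ℝ, 0 < t → 0 < deltaBar N t

/-- `N` is asymptotically midpoint uniformly convex. -/
def IsAMUC (N : X → ℝ) : Prop := ∀ t : ℝ, 0 < t → 0 < midModulus N t

/-- `N` is a norm on `X` equivalent to the given norm of `X`. -/
structure IsEquivNorm (N : X → ℝ) : Prop where
  add_le : ∀ x y : X, N (x + y) ≤ N x + N y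
  smul_eq : ∀ (r : ℝ) (x : X), N (r • x) = |r| * N x
  equiv : ∃ c C : ℝ, 0 < c ∧ 0 < C ∧ ∀ x : X, c * ‖x‖ ≤ N x ∧ N x ≤ C * ‖x‖

end P069
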