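import Vale.Agent.Lib.P069.Defs

/-!
# Weakly null trees with bounded path sums exclude equivalent asymptotically uniformly convex norms
-/

open Filter Topology

namespace P069

variable {X : Type} [NormedAddCommGroup X] [NormedSpace ℝ X]

lemma isCof_top : IsCof (⊤ : Submodule ℝ X) := by
  refine ⟨by simp, ?_⟩
  infer_instance

/-- A weakly null sequence comes arbitrarily close to each member of `cof(X)`. -/
lemma near_cof {F : Submodule ℝ X} (hF : IsCof F) {v : ℕ → X}
    (hv : ∀ φ : StrongDual ℝ X, Tendsto (fun a => φ (v a)) atTop (𝓝 0)) {η : ℝ} (hη : 0 < η) :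
    ∃ a, ∃ w ∈ F, ‖v a - w‖ < η := by
  have : IsClosed (F : Set X) := hF.1
  have : Module.Finite ℝ (X ⧸ F) := hF.2
  -- the quotient map as a continuous linear map
  let π : X →L[ℝ] (X ⧸ F) := (F.mkQ).mkContinuous 1 (fun x => by
    simpa using Submodule.Quotient.norm_mk_le F x)
  have hπ : ∀ x, π x = Submodule.Quotient.mk x := fun _ => rfl
  -- norm convergence in the finite dimensional quotient
  let b := Module.finBasis ℝ (X ⧸ F)
  have hcoord : ∀ i, Tendsto (fun a => b.coord i (π (v a))) atTop (𝓝 0) := by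
    intro i
    let ψ : StrongDual ℝ (X ⧸ F) :=
      ⟨b.coord i, LinearMap.continuous_of_finiteDimensional _⟩
    exact hv (ψ.comp π)
  have hsum : Tendsto (fun a => ∑ i, b.coord i (π (v a)) • b i) atTop
      (𝓝 (∑ i : Fin (Module.finrank ℝ (X ⧸ F)), (0 : ℝ) • b i)) :=
    tendsto_finsetSum _ fun i _ => (hcoord i).smul_const _
  have hrepr : ∀ a, ∑ i, b.coord i (π (v a)) • b i = π (v a) := fun a => by
    simpa [Module.Basis.coord_apply] using b.sum_repr (π (v a))
  simp only [hrepr, zero_smul, Finset.sum_const_zero] at hsum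
  have hnorm : Tendsto (fun a => ‖π (v a)‖) atTop (𝓝 0) := by
    simpa using hsum.norm
  have hev := hnorm.eventually (gt_mem_nhds (half_pos hη))
  obtain ⟨a, ha⟩ := hev.exists
  obtain ⟨m, hm, hm'⟩ := Submodule.Quotient.norm_mk_lt (S := F) (π (v a)) (half_pos hη)
  refine ⟨a, v a - m, ?_, ?_⟩
  · have : (Submodule.Quotient.mk (v a - m) : X ⧸ F) = 0 := by
      rw [Submodule.Quotient.mk_sub, hm, hπ, sub_self]
    exact (Submodule.Quotient.mk_eq_zero F).mp this
  · have : v a - (v a - m) = m := by abel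
    rw [this]
    linarith

/-- What a positive modulus `deltaBar` gives. -/
lemma extract_auc {N : X → ℝ} {t : ℝ} (h : 0 < deltaBar N t) {x : X} (hx : N x = 1) :
    ∃ F : Submodule ℝ X, IsCof F ∧ ∀ y ∈ F, N y = 1 → deltaBar N t / 2 ≤ N (x + t • y) - 1 := by
  set δ := deltaBar N t with hδ
  -- the outer infimum
  have hbdd : BddBelow (Set.range fun x : {x : X // N x = 1} =>
      ⨆ F : {F : Submodule ℝ X // IsCof F},
        ⨅ y : {y : X // y ∈ F.1 ∧ N y = 1}, (N (x.1 + t • y.1) - 1)) := by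
    by_contra hb
    have : δ = 0 := by
      rw [hδ, deltaBar]
      exact Real.iInf_of_not_bddBelow hb
    linarith
  have h1 : δ ≤ ⨆ F : {F : Submodule ℝ X // IsCof F},
      ⨅ y : {y : X // y ∈ F.1 ∧ N y = 1}, (N (x + t • y.1) - 1) :=
    ciInf_le hbdd (⟨x, hx⟩ : {x : X // N x = 1})
  have : Nonempty {F : Submodule ℝ X // IsCof F} := ⟨⟨⊤, isCof_top⟩⟩
  have h2 : δ / 2 < ⨆ F : {F : Submodule ℝ X // IsCof F},
      ⨅ y : {y : X // y ∈ F.1 ∧ N y = 1}, (N (x + t • y.1) - 1) := by linarith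
  obtain ⟨F, hF⟩ := exists_lt_of_lt_ciSup h2
  refine ⟨F.1, F.2, fun y hy hy1 => ?_⟩
  have hbdd2 : BddBelow (Set.range fun y : {y : X // y ∈ F.1 ∧ N y = 1} =>
      N (x + t • y.1) - 1) := by
    by_contra hb
    rw [Real.iInf_of_not_bddBelow hb] at hF
    linarith
  have := ciInf_le hbdd2 (⟨y, hy, hy1⟩ : {y : X // y ∈ F.1 ∧ N y = 1})
  linarith

lemma segment_identity (x y : X) (t τ : ℝ) (hτ : τ ≠ 0) :
    x + t • y = (1 - t / τ) • x + (t / τ) • (x + τ • y) := by
  rw [smul_add, smul_smul, div_mul_cancel₀ _ hτ, sub_smul, one_smul]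
  abel

lemma back_identity (u w : X) (a b : ℝ) (ha : a ≠ 0) (hb : b ≠ 0) :
    u + w = a • (a⁻¹ • u + (b / a) • b⁻¹ • w) := by
  rw [smul_add, smul_smul, smul_smul, smul_smul, mul_inv_cancel₀ ha, one_smul]
  have : a * (b / a) * b⁻¹ = 1 := by
    field_simp
  rw [this, one_smul]

lemma convex_bound {N : X → ℝ} (hN : IsEquivNorm N) {x : X} (hx : N x = 1) {s : ℝ}
    (hs0 : 0 ≤ s) (hs1 : s ≤ 1) (z : X) :
    N ((1 - s) • x + s • z) ≤ (1 - s) + s * N z := by
  refine (hN.add_le _ _).trans ?_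
  rw [hN.smul_eq, hN.smul_eq, abs_of_nonneg (by linarith), abs_of_nonneg hs0, hx, mul_one]

/-- One step along a weakly null sequence increases `N` by a fixed factor. -/
lemma step {N : X → ℝ} (hN : IsEquivNorm N) {c C δ : ℝ} (hc : 0 < c) (hC : 0 < C)
    (hle : ∀ x : X, c * ‖x‖ ≤ N x ∧ N x ≤ C * ‖x‖) (hδ : 0 < δ)
    (hauc : ∀ x : X, N x = 1 → ∃ F : Submodule ℝ X, IsCof F ∧
      ∀ y ∈ F, N y = 1 → δ ≤ N (x + (c / (2 * C)) • y) - 1)
    {u : X} (hu1 : c ≤ N u) (hu2 : N u ≤ C) {v : ℕ → X} (hv1 : ∀ a, ‖v a‖ = 1)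
    (hv2 : ∀ φ : StrongDual ℝ X, Tendsto (fun a => φ (v a)) atTop (𝓝 0)) :
    ∃ a, (1 + δ / 2) * N u ≤ N (u + v a) := by
  have hNu : 0 < N u := by linarith
  set t0 := c / (2 * C) with ht0
  have ht0pos : 0 < t0 := by positivity
  -- the unit vector in direction `u`
  set x : X := (N u)⁻¹ • u with hx
  have hx1 : N x = 1 := by
    rw [hx, hN.smul_eq, abs_of_pos (inv_pos.mpr hNu)]
    exact inv_mul_cancel₀ hNu.ne'
  obtain ⟨F, hF, hFy⟩ := hauc x hx1
  -- a vector of `F` close to some `v a`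
  set η := min (c / (2 * C)) (c * δ / (2 * C)) with hη
  have hηpos : 0 < η := lt_min (by positivity) (by positivity)
  obtain ⟨a, w, hw, hwa⟩ := near_cof hF hv2 hηpos
  have hCη1 : C * ‖v a - w‖ ≤ c / 2 := by
    have : ‖v a - w‖ ≤ c / (2 * C) := hwa.le.trans (min_le_left _ _)
    calc C * ‖v a - w‖ ≤ C * (c / (2 * C)) := by gcongr
      _ = c / 2 := by field_simp
  have hCη2 : C * ‖v a - w‖ ≤ c * δ / 2 := by
    have : ‖v a - w‖ ≤ c * δ / (2 * C) := hwa.le.trans (min_le_right _ _)
    calc C * ‖v a - w‖ ≤ C * (c * δ / (2 * C)) := by gcongr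
      _ = c * δ / 2 := by field_simp
  have hNneg : ∀ z : X, N (-z) = N z := fun z => by
    have := hN.smul_eq (-1) z
    simpa using this
  have hd : N (v a - w) ≤ C * ‖v a - w‖ := (hle _).2
  -- `w` is not small
  have hva : c ≤ N (v a) := by
    have := (hle (v a)).1
    rwa [hv1, mul_one] at this
  have hNw : c / 2 ≤ N w := by
    have h1 : N (v a) ≤ N w + N (v a - w) := by
      have := hN.add_le w (v a - w)
      simpa using this
    linarith
  have hNwpos : 0 < N w := by linarith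
  set y : X := (N w)⁻¹ • w with hy
  have hy1 : N y = 1 := by
    rw [hy, hN.smul_eq, abs_of_pos (inv_pos.mpr hNwpos)]
    exact inv_mul_cancel₀ hNwpos.ne'
  have hyF : y ∈ F := F.smul_mem _ hw
  have h3 := hFy y hyF hy1
  -- convexity along the segment
  set τ := N w / N u with hτ
  have hτpos : 0 < τ := by positivity
  have hτt : t0 ≤ τ := by
    rw [ht0, hτ, div_le_div_iff₀ (by positivity) hNu]
    nlinarith
  have hs0 : 0 < t0 / τ := by positivity
  have hs1 : t0 / τ ≤ 1 := (div_le_one hτpos).mpr hτt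
  have hconv : x + t0 • y = (1 - t0 / τ) • x + (t0 / τ) • (x + τ • y) :=
    segment_identity x y t0 τ hτpos.ne'
  have h4 : N (x + t0 • y) ≤ (1 - t0 / τ) + (t0 / τ) * N (x + τ • y) := by
    rw [hconv]
    exact convex_bound hN hx1 hs0.le hs1 _
  have h5 : 1 + δ ≤ N (x + τ • y) := by
    by_contra hcon
    push Not at hcon
    have : (t0 / τ) * N (x + τ • y) ≤ (t0 / τ) * (1 + δ) := by
      gcongr
    nlinarith
  -- back to `u`
  have hback : u + w = N u • (x + τ • y) := back_identity u w (N u) (N w) hNu.ne' hNwpos.ne'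
  have h6 : N (u + w) = N u * N (x + τ • y) := by
    rw [hback, hN.smul_eq, abs_of_pos hNu]
  have h7 : N (u + w) ≤ N (u + v a) + N (v a - w) := by
    have := hN.add_le (u + v a) (-(v a - w))
    rw [hNneg] at this
    have e : u + v a + -(v a - w) = u + w := by abel
    rwa [e] at this
  refine ⟨a, ?_⟩
  have h8 : N u * (1 + δ) ≤ N (u + w) := by
    rw [h6]
    gcongr
  have h9 : c * δ / 2 ≤ N u * (δ / 2) := by
    have : c * (δ / 2) ≤ N u * (δ / 2) := by gcongr
    linarith
  nlinarith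

/-- **No equivalent asymptotically uniformly convex norm in the presence of weakly null trees with
bounded path sums.** -/
theorem not_auc_of_tree {N : X → ℝ} (hN : IsEquivNorm N) (hA : IsAUC N)
    (node : ℕ → List ℕ → X) (hnode : ∀ n l, ‖node n l‖ = 1)
    (hnull : ∀ n l, ∀ φ : StrongDual ℝ X, Tendsto (fun a => φ (node n (a :: l))) atTop (𝓝 0))
    (path : ℕ → List ℕ → X) (hnil : ∀ n, path n [] = node n [])
    (hcons : ∀ n a l, path n (a :: l) = path n l + node n (a :: l))
    (hbound : ∀ n l, l.length ≤ n → ‖path n l‖ ≤ 1) : False := by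
  obtain ⟨c, C, hc, hC, hle⟩ := hN.equiv
  have ht0 : 0 < c / (2 * C) := by positivity
  have hδ0 := hA _ ht0
  set δ := deltaBar N (c / (2 * C)) / 2 with hδ
  have hδpos : 0 < δ := by positivity
  have hauc : ∀ x : X, N x = 1 → ∃ F : Submodule ℝ X, IsCof F ∧
      ∀ y ∈ F, N y = 1 → δ ≤ N (x + (c / (2 * C)) • y) - 1 := fun x hx => extract_auc hδ0 hx
  have hρ : 1 < 1 + δ / 2 := by linarith
  have hchain : ∀ n k : ℕ, k ≤ n → ∃ l : List ℕ, l.length = k ∧ c * (1 + δ / 2) ^ k ≤ N (path n l) := by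
    intro n k
    induction k with
    | zero =>
      intro _
      refine ⟨[], rfl, ?_⟩
      have := (hle (node n [])).1
      rw [hnode, mul_one] at this
      rw [hnil]
      simpa using this
    | succ k ih =>
      intro hk
      obtain ⟨l, hl, hl2⟩ := ih (by omega)
      have h1 : c ≤ N (path n l) := by
        refine le_trans ?_ hl2
        have : (1 : ℝ) ≤ (1 + δ / 2) ^ k := one_le_pow₀ hρ.le
        nlinarith
      have h2 : N (path n l) ≤ C := by
        have := (hle (path n l)).2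
        have h3 := hbound n l (by omega)
        nlinarith
      obtain ⟨a, ha⟩ := step hN hc hC hle hδpos hauc h1 h2 (v := fun a => node n (a :: l))
        (fun a => hnode n _) (hnull n l)
      refine ⟨a :: l, by simp [hl], ?_⟩
      rw [hcons, pow_succ]
      have : c * (1 + δ / 2) ^ k * (1 + δ / 2) ≤ N (path n l) * (1 + δ / 2) := by
        gcongr
      nlinarith
  obtain ⟨k, hk⟩ := pow_unbounded_of_one_lt (C / c) hρ
  obtain ⟨l, hl, hl2⟩ := hchain k k le_rfl
  have h2 : N (path k l) ≤ C := by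
    have := (hle (path k l)).2
    have h3 := hbound k l (by omega)
    nlinarith
  rw [div_lt_iff₀ hc] at hk
  nlinarith

end P069
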