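import Vale.Agent.Lib.P069.Space

/-!
# The norm of `XX` is asymptotically midpoint uniformly convex
-/

open Filter Topology NormedSpace
open scoped ENNReal

namespace P069

/-- `z` is supported in a finite set that is closed under passing to the parent. -/
def FS (z : XX) : Prop := ∃ s : Finset (ℕ × List ℕ),
  (∀ n a l, (n, a :: l) ∈ s → (n, l) ∈ s) ∧ ∀ n l, (n, l) ∉ s → coord n l z = 0

lemma FS_node (m : ℕ) (k : List ℕ) : FS (node m k) := by
  classical
  refine ⟨k.tails.toFinset.image (fun l => (m, l)), ?_, ?_⟩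
  · intro n a l h
    simp only [Finset.mem_image, List.mem_toFinset, List.mem_tails, Prod.mk.injEq] at h ⊢
    obtain ⟨t, ht, h1, h2⟩ := h
    subst h1 h2
    exact ⟨l, (List.suffix_cons a l).trans ht, rfl, rfl⟩
  · intro n l h
    rw [coord_node, if_neg]
    rintro ⟨rfl, rfl⟩
    apply h
    refine Finset.mem_image.mpr ⟨l, ?_, rfl⟩
    simp

lemma FS_zero : FS 0 := ⟨∅, by simp, by simp⟩

lemma FS_add {y z : XX} (hy : FS y) (hz : FS z) : FS (y + z) := by
  classical
  obtain ⟨s, hs1, hs2⟩ := hy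
  obtain ⟨t, ht1, ht2⟩ := hz
  refine ⟨s ∪ t, ?_, ?_⟩
  · intro n a l h
    rcases Finset.mem_union.mp h with h | h
    · exact Finset.mem_union_left _ (hs1 n a l h)
    · exact Finset.mem_union_right _ (ht1 n a l h)
  · intro n l h
    have h1 : (n, l) ∉ s := fun h' => h (Finset.mem_union_left _ h')
    have h2 : (n, l) ∉ t := fun h' => h (Finset.mem_union_right _ h')
    rw [map_add, hs2 n l h1, ht2 n l h2, add_zero]

lemma FS_smul (r : ℝ) {z : XX} (hz : FS z) : FS (r • z) := by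
  obtain ⟨t, ht1, ht2⟩ := hz
  refine ⟨t, ht1, fun n l h => ?_⟩
  rw [map_smul, ht2 n l h, smul_zero]

/-- The span of the basis vectors. -/
noncomputable def spanD : Submodule ℝ XX :=
  Submodule.span ℝ (Set.range fun p : ℕ × List ℕ => node p.1 p.2)

lemma FS_of_mem_span {z : XX} (hz : z ∈ spanD) : FS z := by
  refine Submodule.span_induction ?_ FS_zero (fun _ _ _ _ h1 h2 => FS_add h1 h2)
    (fun r _ _ h => FS_smul r h) hz
  rintro _ ⟨p, rfl⟩
  exact FS_node p.1 p.2

lemma emb_mem_closure (n : ℕ) (a : H) : emb n a ∈ spanD.topologicalClosure := by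
  have h := (lp.hasSum_single (E := fun _ : List ℕ => ℝ) (p := 2) (by norm_num) a).mapL (emb n)
  refine (Submodule.isClosed_topologicalClosure spanD).mem_of_tendsto h
    (Eventually.of_forall fun t => ?_)
  refine Submodule.sum_mem _ fun l _ => ?_
  refine Submodule.le_topologicalClosure _ ?_
  have e : lp.single 2 l (a l) = (a l) • ee l := by
    rw [ee, ← lp.single_smul]
    simp
  rw [e, map_smul]
  exact Submodule.smul_mem _ _ (Submodule.subset_span ⟨(n, l), rfl⟩)

lemma mem_closure_span (x : XX) : x ∈ spanD.topologicalClosure := by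
  have h := lp.hasSum_single (E := Fib) (p := 2) (by norm_num) x
  refine (Submodule.isClosed_topologicalClosure spanD).mem_of_tendsto h
    (Eventually.of_forall fun t => ?_)
  refine Submodule.sum_mem _ fun n _ => ?_
  have e : lp.single 2 n (x n) = emb n (toH n (x n)) := by
    rw [emb_apply]
    simp
  rw [e]
  exact emb_mem_closure n _

lemma exists_FS_near (x : XX) {η : ℝ} (hη : 0 < η) : ∃ x', FS x' ∧ ‖x - x'‖ < η := by
  have h := mem_closure_span x
  rw [← SetLike.mem_coe, Submodule.topologicalClosure_coe, Metric.mem_closure_iff] at h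
  obtain ⟨b, hb, hd⟩ := h η hη
  exact ⟨b, FS_of_mem_span hb, by rwa [dist_eq_norm] at hd⟩

/-- The key inequality in the `ℓ²` sum. -/
lemma key_XX {s : Finset (ℕ × List ℕ)} (hs : ∀ n a l, (n, a :: l) ∈ s → (n, l) ∈ s)
    {x y : XX} (hx : ∀ n l, (n, l) ∉ s → coord n l x = 0)
    (hy : ∀ n l, (n, l) ∈ s → coord n l y = 0) :
    2 * ‖x‖ ^ 2 + ‖y‖ ^ 2 / 10 ≤ ‖x + y‖ ^ 2 + ‖x - y‖ ^ 2 := by
  have hterm : ∀ n, 2 * ‖x n‖ ^ 2 + ‖y n‖ ^ 2 / 10 ≤ ‖(x + y) n‖ ^ 2 + ‖(x - y) n‖ ^ 2 := by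
    intro n
    have := key_ineq (n := n) (fun l => (n, l) ∈ s) (fun a l h => hs n a l h)
      (x := toH n (x n)) (y := toH n (y n)) (fun l hl => hx n l hl) (fun l hl => hy n l hl)
    rw [← map_add, ← map_sub] at this
    exact this
  rw [norm_sq_eq_tsum x, norm_sq_eq_tsum y, norm_sq_eq_tsum (x + y), norm_sq_eq_tsum (x - y)]
  rw [← tsum_mul_left, ← tsum_div_const,
    ← ((summable_norm_sq x).mul_left 2).tsum_add ((summable_norm_sq y).div_const 10),
    ← (summable_norm_sq (x + y)).tsum_add (summable_norm_sq (x - y))]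
  exact Summable.tsum_le_tsum hterm
    (((summable_norm_sq x).mul_left 2).add ((summable_norm_sq y).div_const 10))
    ((summable_norm_sq (x + y)).add (summable_norm_sq (x - y)))

/-- The member of `cof(XX)` given by the vanishing of finitely many coordinates. -/
noncomputable def cofKer (s : Finset (ℕ × List ℕ)) : Submodule ℝ XX :=
  LinearMap.ker (ContinuousLinearMap.pi fun p : s => coord p.1.1 p.1.2 : XX →L[ℝ] (s → ℝ)).toLinearMap

lemma mem_cofKer {s : Finset (ℕ × List ℕ)} {y : XX} :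
    y ∈ cofKer s ↔ ∀ n l, (n, l) ∈ s → coord n l y = 0 := by
  rw [cofKer, LinearMap.mem_ker]
  constructor
  · intro h n l hp
    exact congrFun h ⟨(n, l), hp⟩
  · intro h
    funext p
    exact h p.1.1 p.1.2 p.2

lemma isCof_cofKer (s : Finset (ℕ × List ℕ)) : IsCof (cofKer s) := by
  constructor
  · exact (ContinuousLinearMap.pi fun p : s => coord p.1.1 p.1.2 : XX →L[ℝ] (s → ℝ)).isClosed_ker
  · exact Module.Finite.equiv
      (LinearMap.quotKerEquivRange
        (ContinuousLinearMap.pi fun p : s => coord p.1.1 p.1.2 : XX →L[ℝ] (s → ℝ)).toLinearMap).symm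

lemma exists_node_mem_cofKer (s : Finset (ℕ × List ℕ)) : ∃ l₀, node 0 l₀ ∈ cofKer s := by
  classical
  obtain ⟨l₀, hl₀⟩ := Infinite.exists_notMem_finset (s.image Prod.snd)
  refine ⟨l₀, mem_cofKer.mpr fun n l hp => ?_⟩
  rw [coord_node, if_neg]
  rintro ⟨-, rfl⟩
  exact hl₀ (Finset.mem_image.mpr ⟨_, hp, rfl⟩)

/-- The inequality behind the modulus. -/
lemma midpoint_step {t : ℝ} (ht : 0 < t) {x y : XX} (hx : ‖x‖ = 1) (hy : ‖y‖ = 1) {x' : XX}
    {s : Finset (ℕ × List ℕ)} (hs : ∀ n a l, (n, a :: l) ∈ s → (n, l) ∈ s)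
    (hx' : ∀ n l, (n, l) ∉ s → coord n l x' = 0) (hy' : y ∈ cofKer s)
    (hclose : ‖x - x'‖ < min 1 (t ^ 2 / 20) / 9) :
    min 1 (t ^ 2 / 20) / 9 ≤ max ‖x + t • y‖ ‖x - t • y‖ - 1 := by
  set σ := t ^ 2 / 20 with hσ
  have hσ0 : 0 < σ := by positivity
  set η := min 1 σ / 9 with hη
  have hη0 : 0 < η := by
    have : 0 < min 1 σ := lt_min one_pos hσ0
    positivity
  have hη1 : η ≤ 1 / 9 := by
    have : min 1 σ ≤ 1 := min_le_left _ _
    rw [hη]
    linarith
  have hησ : 9 * η ≤ σ := by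
    have : min 1 σ ≤ σ := min_le_right _ _
    rw [hη]
    linarith
  by_contra hcon
  push Not at hcon
  have hA : ‖x + t • y‖ < 1 + η := by
    have := le_max_left ‖x + t • y‖ ‖x - t • y‖
    linarith
  have hB : ‖x - t • y‖ < 1 + η := by
    have := le_max_right ‖x + t • y‖ ‖x - t • y‖
    linarith
  -- the key inequality at `x'`
  have hy2 : ∀ n l, (n, l) ∈ s → coord n l (t • y) = 0 := by
    intro n l hp
    rw [map_smul, mem_cofKer.mp hy' n l hp, smul_zero]
  have key := key_XX hs hx' hy2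
  have hty : ‖t • y‖ = t := by
    rw [norm_smul, hy, mul_one, Real.norm_of_nonneg ht.le]
  rw [hty] at key
  have h1 : 1 - η ≤ ‖x'‖ := by
    have := norm_sub_norm_le x x'
    rw [hx] at this
    linarith
  have h2 : ‖x' + t • y‖ ≤ 1 + 2 * η := by
    have e : x' + t • y = (x + t • y) - (x - x') := by abel
    rw [e]
    have := norm_sub_le (x + t • y) (x - x')
    linarith
  have h3 : ‖x' - t • y‖ ≤ 1 + 2 * η := by
    have e : x' - t • y = (x - t • y) - (x - x') := by abel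
    rw [e]
    have := norm_sub_le (x - t • y) (x - x')
    linarith
  have h4 : (1 - η) ^ 2 ≤ ‖x'‖ ^ 2 := by
    apply pow_le_pow_left₀ (by linarith) h1
  have h5 : ‖x' + t • y‖ ^ 2 ≤ (1 + 2 * η) ^ 2 :=
    pow_le_pow_left₀ (norm_nonneg _) h2 2
  have h6 : ‖x' - t • y‖ ^ 2 ≤ (1 + 2 * η) ^ 2 :=
    pow_le_pow_left₀ (norm_nonneg _) h3 2
  have h7 : t ^ 2 / 10 = 2 * σ := by
    rw [hσ]; ring
  rw [h7] at key
  nlinarith

/-- The lower bound for the modulus of midpoint convexity of `XX`. -/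
theorem midModulus_XX {t : ℝ} (ht : 0 < t) :
    min 1 (t ^ 2 / 20) / 9 ≤ midModulus (fun x : XX => ‖x‖) t := by
  have hη0 : 0 < min 1 (t ^ 2 / 20) / 9 := by
    have : 0 < min 1 (t ^ 2 / 20) := lt_min one_pos (by positivity)
    positivity
  unfold midModulus
  have hne : Nonempty {x : XX // ‖x‖ = 1} := ⟨⟨node 0 [], norm_node 0 []⟩⟩
  refine le_ciInf fun x => ?_
  -- the inner infima are at most `t`
  have hbdd : BddAbove (Set.range fun F : {F : Submodule ℝ XX // IsCof F} =>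
      ⨅ y : {y : XX // y ∈ F.1 ∧ ‖y‖ = 1},
        (max ‖x.1 + t • y.1‖ ‖x.1 - t • y.1‖ - 1)) := by
    refine ⟨t, ?_⟩
    rintro _ ⟨F, rfl⟩
    by_cases hF : Nonempty {y : XX // y ∈ F.1 ∧ ‖y‖ = 1}
    · obtain ⟨y0⟩ := hF
      have hbb : BddBelow (Set.range fun y : {y : XX // y ∈ F.1 ∧ ‖y‖ = 1} =>
          (max ‖x.1 + t • y.1‖ ‖x.1 - t • y.1‖ - 1)) := by
        refine ⟨-1, ?_⟩
        rintro _ ⟨y, rfl⟩
        have h1 : 0 ≤ max ‖x.1 + t • y.1‖ ‖x.1 - t • y.1‖ :=
          (norm_nonneg _).trans (le_max_left _ _)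
        simp only
        linarith
      refine (ciInf_le hbb y0).trans ?_
      have hty : ‖t • y0.1‖ = t := by
        rw [norm_smul, y0.2.2, mul_one, Real.norm_of_nonneg ht.le]
      have hx1 : ‖x.1‖ = 1 := x.2
      have h1 : ‖x.1 + t • y0.1‖ ≤ 1 + t := by
        have := norm_add_le x.1 (t • y0.1)
        rw [hx1, hty] at this
        exact this
      have h2 : ‖x.1 - t • y0.1‖ ≤ 1 + t := by
        have := norm_sub_le x.1 (t • y0.1)
        rw [hx1, hty] at this
        exact this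
      have := max_le h1 h2
      simp only
      linarith
    · rw [not_nonempty_iff] at hF
      beta_reduce
      rw [Real.iInf_of_isEmpty]
      exact ht.le
  obtain ⟨x', ⟨s, hs1, hs2⟩, hclose⟩ := exists_FS_near x.1 hη0
  refine le_ciSup_of_le hbdd ⟨cofKer s, isCof_cofKer s⟩ ?_
  obtain ⟨l₀, hl₀⟩ := exists_node_mem_cofKer s
  have hne2 : Nonempty {y : XX // y ∈ cofKer s ∧ ‖y‖ = 1} := ⟨⟨node 0 l₀, hl₀, norm_node 0 l₀⟩⟩
  refine le_ciInf fun y => ?_
  exact midpoint_step ht x.2 y.2.2 hs1 hs2 y.2.1 hclose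

theorem isAMUC_XX : IsAMUC (fun x : XX => ‖x‖) := by
  intro t ht
  have h1 : 0 < min 1 (t ^ 2 / 20) / 9 := by
    have : 0 < min 1 (t ^ 2 / 20) := lt_min one_pos (by positivity)
    positivity
  exact h1.trans_le (midModulus_XX ht)

end P069
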