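import Mathlib

/-!
# Reflexivity: Hilbert spaces, isomorphic copies, and `ℓ²` sums
-/

open Filter Topology NormedSpace
open scoped ENNReal

namespace P069

section Equiv

variable {V W : Type} [NormedAddCommGroup V] [NormedSpace ℝ V]
  [NormedAddCommGroup W] [NormedSpace ℝ W]

/-- precomposition of functionals with `T` -/
noncomputable def pre (T : V →L[ℝ] W) : StrongDual ℝ W →L[ℝ] StrongDual ℝ V :=
  (ContinuousLinearMap.compL ℝ V W ℝ).flip T

@[simp] lemma pre_apply (T : V →L[ℝ] W) (ψ : StrongDual ℝ W) (v : V) : pre T ψ v = ψ (T v) := rfl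

/-- Reflexivity passes to isomorphic copies. -/
lemma reflexive_of_equiv (e : V ≃L[ℝ] W)
    (h : Function.Surjective (inclusionInDoubleDual ℝ W)) :
    Function.Surjective (inclusionInDoubleDual ℝ V) := by
  intro Φ
  obtain ⟨w, hw⟩ := h (Φ.comp (pre (e : V →L[ℝ] W)))
  refine ⟨e.symm w, ?_⟩
  ext φ
  have h1 := congrArg (fun F => F (pre (e.symm : W →L[ℝ] V) φ)) hw
  simp only [dual_def, ContinuousLinearMap.comp_apply, pre_apply] at h1
  have h2 : pre (e : V →L[ℝ] W) (pre (e.symm : W →L[ℝ] V) φ) = φ := by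
    ext v
    simp
  rw [h2] at h1
  simpa using h1

end Equiv

section Hilbert

variable {K : Type} [NormedAddCommGroup K] [InnerProductSpace ℝ K] [CompleteSpace K]

/-- Real Hilbert spaces are reflexive. -/
lemma reflexive_hilbert : Function.Surjective (inclusionInDoubleDual ℝ K) := by
  intro Φ
  let T := InnerProductSpace.toDual ℝ K
  let L : K →ₗ[ℝ] ℝ :=
    { toFun := fun g => Φ (T g)
      map_add' := fun a b => by simp [T]
      map_smul' := fun c a => by simp [T] }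
  let L' : StrongDual ℝ K := L.mkContinuous ‖Φ‖ (fun g => by
    have := Φ.le_opNorm (T g)
    simpa [T, L] using this)
  refine ⟨T.symm L', ?_⟩
  ext ψ
  simp only [dual_def]
  have h1 : ψ (T.symm L') = inner ℝ (T.symm ψ) (T.symm L') := by
    rw [InnerProductSpace.toDual_symm_apply]
  have h2 : inner ℝ (T.symm ψ) (T.symm L') = inner ℝ (T.symm L') (T.symm ψ) :=
    real_inner_comm _ _
  have h3 : inner ℝ (T.symm L') (T.symm ψ) = L' (T.symm ψ) := by
    rw [InnerProductSpace.toDual_symm_apply]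
  have h4 : L' (T.symm ψ) = Φ (T (T.symm ψ)) := rfl
  rw [h1, h2, h3, h4]
  simp

end Hilbert

section Sum

variable {E : ℕ → Type} [∀ n, NormedAddCommGroup (E n)] [∀ n, NormedSpace ℝ (E n)]

/-- inclusion of the `n`-th summand -/
noncomputable abbrev inc (E : ℕ → Type) [∀ n, NormedAddCommGroup (E n)] [∀ n, NormedSpace ℝ (E n)]
    (n : ℕ) : E n →L[ℝ] lp E 2 :=
  lp.singleContinuousLinearMap ℝ E 2 n

/-- projection to the `n`-th summand -/
noncomputable abbrev prj (E : ℕ → Type) [∀ n, NormedAddCommGroup (E n)] [∀ n, NormedSpace ℝ (E n)]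
    (n : ℕ) : lp E 2 →L[ℝ] E n :=
  lp.evalCLM ℝ E 2 n

lemma toReal_two : (2 : ℝ≥0∞).toReal = 2 := by norm_num

omit [∀ n, NormedSpace ℝ (E n)]

lemma sum_sq_le_norm_sq (z : lp E 2) (s : Finset ℕ) : ∑ n ∈ s, ‖z n‖ ^ 2 ≤ ‖z‖ ^ 2 := by
  have := lp.sum_rpow_le_norm_rpow (p := 2) (by norm_num) z s
  simpa [toReal_two] using this

lemma norm_sq_eq_tsum (z : lp E 2) : ‖z‖ ^ 2 = ∑' n, ‖z n‖ ^ 2 := by
  have := lp.norm_rpow_eq_tsum (p := 2) (by norm_num) z
  simpa [toReal_two] using this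

lemma summable_norm_sq (z : lp E 2) : Summable fun n => ‖z n‖ ^ 2 := by
  have := (lp.memℓp z).summable (p := 2) (by norm_num)
  simpa [toReal_two] using this

lemma norm_sq_sum_single (f : ∀ n, E n) (s : Finset ℕ) :
    ‖∑ n ∈ s, lp.single 2 n (f n)‖ ^ 2 = ∑ n ∈ s, ‖f n‖ ^ 2 := by
  have := lp.norm_sum_single (p := 2) (by norm_num) f s
  simpa [toReal_two] using this

lemma le_sq_of_le_mul_sqrt {A B : ℝ} (hA : 0 ≤ A) (h : A ≤ B * Real.sqrt A) :
    A ≤ B ^ 2 := by
  have hs := Real.sq_sqrt hA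
  rcases eq_or_lt_of_le (Real.sqrt_nonneg A) with h0 | hpos
  · have : A = 0 := by rw [← hs, ← h0]; simp
    rw [this]
    positivity
  · set S := Real.sqrt A with hS
    have h6 : S * S ≤ B * S := by nlinarith
    have h7 : S ≤ B := le_of_mul_le_mul_right h6 hpos
    calc A = S ^ 2 := hs.symm
      _ ≤ B ^ 2 := by gcongr

variable [∀ n, NormedSpace ℝ (E n)]

/-- The sum of the squares of the norms of the elements representing `Φ` on the summands. -/
lemma sum_sq_le_of_rep (Φ : StrongDual ℝ (StrongDual ℝ (lp E 2))) (x : ∀ n, E n)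
    (hx : ∀ n (ψ : StrongDual ℝ (E n)), ψ (x n) = Φ (pre (prj E n) ψ)) (s : Finset ℕ) :
    ∑ n ∈ s, ‖x n‖ ^ 2 ≤ ‖Φ‖ ^ 2 := by
  classical
  choose ψ hψ1 hψ2 using fun n => exists_dual_vector'' ℝ (x n)
  set A := ∑ n ∈ s, ‖x n‖ ^ 2 with hA
  have hA0 : 0 ≤ A := Finset.sum_nonneg fun _ _ => by positivity
  set θ : StrongDual ℝ (lp E 2) := ∑ n ∈ s, ‖x n‖ • pre (prj E n) (ψ n) with hθ
  have hΦθ : Φ θ = A := by
    rw [hθ, map_sum, hA]
    refine Finset.sum_congr rfl fun n _ => ?_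
    rw [map_smul, ← hx, hψ2]
    simp [sq]
  have hθz : ∀ z : lp E 2, θ z = ∑ n ∈ s, ‖x n‖ * ψ n (z n) := by
    intro z
    rw [hθ, _root_.sum_apply]
    rfl
  have hnorm : ‖θ‖ ≤ Real.sqrt A := by
    refine ContinuousLinearMap.opNorm_le_bound _ (Real.sqrt_nonneg _) fun z => ?_
    rw [hθz, Real.norm_eq_abs]
    have h1 : |∑ n ∈ s, ‖x n‖ * ψ n (z n)| ≤ ∑ n ∈ s, ‖x n‖ * ‖z n‖ := by
      refine (Finset.abs_sum_le_sum_abs _ _).trans (Finset.sum_le_sum fun n _ => ?_)
      rw [abs_mul, abs_of_nonneg (norm_nonneg _)]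
      gcongr
      have := (ψ n).le_opNorm (z n)
      rw [Real.norm_eq_abs] at this
      have h2 := hψ1 n
      have h3 := norm_nonneg (z n)
      nlinarith
    have h2 : (∑ n ∈ s, ‖x n‖ * ‖z n‖) ^ 2 ≤ A * ‖z‖ ^ 2 := by
      refine (Finset.sum_mul_sq_le_sq_mul_sq _ _ _).trans ?_
      gcongr
      exact sum_sq_le_norm_sq z s
    have h3 : ∑ n ∈ s, ‖x n‖ * ‖z n‖ ≤ Real.sqrt A * ‖z‖ := by
      have : Real.sqrt A * ‖z‖ = Real.sqrt (A * ‖z‖ ^ 2) := by
        rw [Real.sqrt_mul hA0, Real.sqrt_sq (norm_nonneg _)]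
      rw [this]
      exact Real.le_sqrt_of_sq_le h2
    exact h1.trans h3
  have h5 : A ≤ ‖Φ‖ * Real.sqrt A := by
    calc A = Φ θ := hΦθ.symm
      _ ≤ |Φ θ| := le_abs_self _
      _ ≤ ‖Φ‖ * ‖θ‖ := by simpa using Φ.le_opNorm θ
      _ ≤ ‖Φ‖ * Real.sqrt A := by gcongr
  exact le_sq_of_le_mul_sqrt hA0 h5

/-- A near norming vector. -/
lemma exists_near_norming {V : Type} [NormedAddCommGroup V] [NormedSpace ℝ V]
    (ψ : StrongDual ℝ V) {r : ℝ} (hr : r < ‖ψ‖) : ∃ w : V, ‖w‖ ≤ 1 ∧ r < ψ w := by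
  by_cases h0 : r < 0
  · exact ⟨0, by simp, by simpa using h0⟩
  push Not at h0
  have hnn : (r.toNNReal : ℝ) = r := Real.coe_toNNReal _ h0
  obtain ⟨w, hw1, hw2⟩ := ψ.exists_lt_apply_of_lt_opNorm (r := r.toNNReal) (by
    rw [hnn]
    exact hr)
  rw [hnn, Real.norm_eq_abs] at hw2
  rcases lt_abs.mp hw2 with h | h
  · exact ⟨w, hw1.le, h⟩
  · refine ⟨-w, by simpa using hw1.le, ?_⟩
    simpa using h

/-- The norms of the restrictions of a functional are square summable. -/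
lemma sum_sq_opNorm_le (φ : StrongDual ℝ (lp E 2)) (s : Finset ℕ) :
    ∑ n ∈ s, ‖φ.comp (inc E n)‖ ^ 2 ≤ ‖φ‖ ^ 2 := by
  classical
  set a : ℕ → ℝ := fun n => ‖φ.comp (inc E n)‖ with ha
  have ha0 : ∀ n, 0 ≤ a n := fun n => norm_nonneg _
  set A := ∑ n ∈ s, a n ^ 2 with hA
  have hA0 : 0 ≤ A := Finset.sum_nonneg fun _ _ => by positivity
  set K := ∑ n ∈ s, a n with hK
  have hK0 : 0 ≤ K := Finset.sum_nonneg fun n _ => ha0 n
  -- the bound up to any error
  have key : ∀ ε : ℝ, 0 < ε → A ≤ ‖φ‖ * Real.sqrt A + ε * K := by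
    intro ε hε
    choose w hw1 hw2 using fun n =>
      exists_near_norming (φ.comp (inc E n)) (show a n - ε < ‖φ.comp (inc E n)‖ by
        simp only [ha]; linarith)
    set z : lp E 2 := ∑ n ∈ s, lp.single 2 n (a n • w n) with hz
    have hzn : ‖z‖ ^ 2 ≤ A := by
      rw [hz, norm_sq_sum_single (fun n => a n • w n)]
      refine Finset.sum_le_sum fun n _ => ?_
      rw [norm_smul, Real.norm_of_nonneg (ha0 n), mul_pow]
      have h1 : ‖w n‖ ^ 2 ≤ 1 := by
        have := hw1 n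
        have := norm_nonneg (w n)
        nlinarith
      nlinarith [sq_nonneg (a n)]
    have hzn2 : ‖z‖ ≤ Real.sqrt A := Real.le_sqrt_of_sq_le hzn
    have hφz : φ z = ∑ n ∈ s, a n * φ (lp.single 2 n (w n)) := by
      rw [hz, map_sum]
      refine Finset.sum_congr rfl fun n _ => ?_
      rw [lp.single_smul, map_smul, smul_eq_mul]
    have h2 : A - ε * K ≤ φ z := by
      rw [hφz, hA, hK, Finset.mul_sum, ← Finset.sum_sub_distrib]
      refine Finset.sum_le_sum fun n _ => ?_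
      have h3 : a n - ε < φ (lp.single 2 n (w n)) := hw2 n
      nlinarith [ha0 n]
    have h3 : φ z ≤ ‖φ‖ * Real.sqrt A := by
      calc φ z ≤ |φ z| := le_abs_self _
        _ ≤ ‖φ‖ * ‖z‖ := by simpa using φ.le_opNorm z
        _ ≤ _ := by gcongr
    linarith
  have h5 : A ≤ ‖φ‖ * Real.sqrt A := by
    refine le_of_forall_pos_le_add fun ε hε => ?_
    have := key (ε / (K + 1)) (by positivity)
    have h6 : ε / (K + 1) * K ≤ ε := by
      rw [div_mul_eq_mul_div, div_le_iff₀ (by positivity)]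
      nlinarith
    linarith
  exact le_sq_of_le_mul_sqrt hA0 h5

/-- A functional is the norm limit of its finite block restrictions. -/
lemma tendsto_restrict (φ : StrongDual ℝ (lp E 2)) :
    Tendsto (fun s : Finset ℕ => ∑ n ∈ s, pre (prj E n) (φ.comp (inc E n))) atTop (𝓝 φ) := by
  classical
  set a : ℕ → ℝ := fun n => ‖φ.comp (inc E n)‖ with ha
  have hsumm : Summable fun n => a n ^ 2 :=
    summable_of_sum_le (fun _ => by positivity) (sum_sq_opNorm_le φ)
  rw [Metric.tendsto_atTop]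
  intro ε hε
  obtain ⟨s₀, hs₀⟩ := summable_iff_vanishing_norm.mp hsumm ((ε / 2) ^ 2) (by positivity)
  refine ⟨s₀, fun s hs => ?_⟩
  rw [dist_comm, dist_eq_norm]
  have hbound : ‖φ - ∑ n ∈ s, pre (prj E n) (φ.comp (inc E n))‖ ≤ ε / 2 := by
    refine ContinuousLinearMap.opNorm_le_bound _ (by positivity) fun z => ?_
    have hφs : (∑ n ∈ s, pre (prj E n) (φ.comp (inc E n))) z = ∑ n ∈ s, φ (lp.single 2 n (z n)) := by
      rw [_root_.sum_apply]
      rfl
    rw [_root_.sub_apply, hφs, Real.norm_eq_abs]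
    -- `φ z` as a limit
    have hlim : Tendsto (fun t : Finset ℕ => ∑ n ∈ t, φ (lp.single 2 n (z n))) atTop (𝓝 (φ z)) := by
      have := (lp.hasSum_single (E := E) (p := 2) (by norm_num) z).mapL φ
      exact this
    have hlim2 : Tendsto (fun t : Finset ℕ => |∑ n ∈ t, φ (lp.single 2 n (z n)) -
        ∑ n ∈ s, φ (lp.single 2 n (z n))|) atTop
        (𝓝 |φ z - ∑ n ∈ s, φ (lp.single 2 n (z n))|) :=
      (hlim.sub_const _).abs
    refine le_of_tendsto hlim2 ?_
    filter_upwards [eventually_ge_atTop s] with t ht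
    have hdiff : ∑ n ∈ t, φ (lp.single 2 n (z n)) - ∑ n ∈ s, φ (lp.single 2 n (z n))
        = ∑ n ∈ t \ s, φ (lp.single 2 n (z n)) := by
      rw [← Finset.sum_sdiff ht]
      ring
    rw [hdiff]
    have hdisj : Disjoint (t \ s) s₀ :=
      Finset.disjoint_of_subset_right hs Finset.sdiff_disjoint
    have h1 : ∑ n ∈ t \ s, a n ^ 2 < (ε / 2) ^ 2 := by
      have := hs₀ (t \ s) hdisj
      rwa [Real.norm_of_nonneg (Finset.sum_nonneg fun _ _ => by positivity)] at this
    have h2 : |∑ n ∈ t \ s, φ (lp.single 2 n (z n))| ≤ ∑ n ∈ t \ s, a n * ‖z n‖ := by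
      refine (Finset.abs_sum_le_sum_abs _ _).trans (Finset.sum_le_sum fun n _ => ?_)
      have := (φ.comp (inc E n)).le_opNorm (z n)
      simpa using this
    have h3 : (∑ n ∈ t \ s, a n * ‖z n‖) ^ 2 ≤ ((ε / 2) * ‖z‖) ^ 2 := by
      refine (Finset.sum_mul_sq_le_sq_mul_sq _ _ _).trans ?_
      rw [mul_pow]
      exact mul_le_mul h1.le (sum_sq_le_norm_sq z _) (Finset.sum_nonneg fun _ _ => by positivity)
        (by positivity)
    have h4 : ∑ n ∈ t \ s, a n * ‖z n‖ ≤ (ε / 2) * ‖z‖ :=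
      abs_le_of_sq_le_sq' h3 (by positivity) |>.2
    exact h2.trans h4
  linarith

/-- `ℓ²` sums of reflexive spaces are reflexive. -/
theorem reflexive_lp2 (h : ∀ n, Function.Surjective (inclusionInDoubleDual ℝ (E n))) :
    Function.Surjective (inclusionInDoubleDual ℝ (lp E 2)) := by
  classical
  intro Φ
  -- representing vectors on the summands
  have hex : ∀ n, ∃ x : E n, ∀ ψ : StrongDual ℝ (E n), ψ x = Φ (pre (prj E n) ψ) := by
    intro n
    obtain ⟨x, hx⟩ := h n (Φ.comp (pre (prj E n)))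
    refine ⟨x, fun ψ => ?_⟩
    have := congrArg (fun F => F ψ) hx
    simpa using this
  choose x hx using hex
  have hmem : Memℓp x 2 := by
    refine memℓp_gen' (C := ‖Φ‖ ^ 2) fun s => ?_
    have := sum_sq_le_of_rep Φ x hx s
    simpa [toReal_two] using this
  let X : lp E 2 := ⟨x, hmem⟩
  refine ⟨X, ?_⟩
  ext φ
  simp only [dual_def]
  -- both sides are limits along finite blocks
  have h1 : Tendsto (fun s : Finset ℕ => Φ (∑ n ∈ s, pre (prj E n) (φ.comp (inc E n)))) atTop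
      (𝓝 (Φ φ)) := (Φ.continuous.tendsto φ).comp (tendsto_restrict φ)
  have h2 : ∀ s : Finset ℕ, Φ (∑ n ∈ s, pre (prj E n) (φ.comp (inc E n)))
      = ∑ n ∈ s, φ (lp.single 2 n (X n)) := by
    intro s
    rw [map_sum]
    refine Finset.sum_congr rfl fun n _ => ?_
    rw [← hx]
    rfl
  simp only [h2] at h1
  have h3 : Tendsto (fun s : Finset ℕ => ∑ n ∈ s, φ (lp.single 2 n (X n))) atTop (𝓝 (φ X)) :=
    (lp.hasSum_single (E := E) (p := 2) (by norm_num) X).mapL φ
  exact tendsto_nhds_unique h3 h1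

end Sum

end P069
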