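import Vale.Agent.Lib.P069.Tree
import Vale.Agent.Lib.P069.General
import Vale.Agent.Lib.P069.Reflexive

/-!
# The space

`Fib n` is `H` with the tree norm of height `n`, and `X` is the `ℓ²` sum of the `Fib n`.
-/

open Filter Topology NormedSpace
open scoped ENNReal

namespace P069

/-- `H` with the tree norm of height `n`. -/
def Fib (_n : ℕ) : Type := H

noncomputable instance (n : ℕ) : AddCommGroup (Fib n) := inferInstanceAs (AddCommGroup H)
noncomputable instance (n : ℕ) : Module ℝ (Fib n) := inferInstanceAs (Module ℝ H)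

/-- The identity from `Fib n` to `H`. -/
noncomputable def toH (n : ℕ) : Fib n ≃ₗ[ℝ] H := LinearEquiv.refl ℝ H

/-- The tree norm as a group norm. -/
noncomputable def fibNorm (n : ℕ) : AddGroupNorm (Fib n) where
  toFun a := nrm n (toH n a)
  map_zero' := by simpa using nrm_zero n
  add_le' a b := by rw [map_add]; exact nrm_add_le n _ _
  neg' a := by rw [map_neg]; exact nrm_neg n _
  eq_zero_of_map_eq_zero' a h := by
    have := eq_zero_of_nrm n h
    simpa using this

noncomputable instance (n : ℕ) : NormedAddCommGroup (Fib n) := (fibNorm n).toNormedAddCommGroup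

lemma norm_fib (n : ℕ) (a : Fib n) : ‖a‖ = nrm n (toH n a) := rfl

noncomputable instance (n : ℕ) : NormedSpace ℝ (Fib n) where
  norm_smul_le r a := by
    rw [norm_fib, norm_fib, map_smul]
    simpa using nrm_smul_le n r (toH n a)

/-- The identity from `Fib n` to `H` as an isomorphism of normed spaces. -/
noncomputable def toCLE (n : ℕ) : Fib n ≃L[ℝ] H :=
  (toH n).toContinuousLinearEquivOfBounds ((n : ℝ) + 1) 1
    (fun a => norm_le_nrm n (toH n a))
    (fun a => by
      rw [one_mul, norm_fib]
      simpa using nrm_le_norm n a)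

@[simp] lemma toCLE_apply (n : ℕ) (a : Fib n) : toCLE n a = toH n a := rfl
@[simp] lemma toCLE_symm_apply (n : ℕ) (a : H) : (toCLE n).symm a = (toH n).symm a := rfl

instance (n : ℕ) : CompleteSpace (Fib n) :=
  (completeSpace_congr (e := (toCLE n).toEquiv) (toCLE n).isUniformEmbedding).mpr inferInstance

lemma reflexive_fib (n : ℕ) : Function.Surjective (inclusionInDoubleDual ℝ (Fib n)) :=
  reflexive_of_equiv (toCLE n) reflexive_hilbert

/-- The `ℓ²` sum of the fibres. -/
abbrev XX : Type := lp Fib 2

instance : CompleteSpace XX := inferInstance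

lemma reflexive_XX : Function.Surjective (inclusionInDoubleDual ℝ XX) :=
  reflexive_lp2 reflexive_fib

/-- The map from `H` to the fibre number `n` of `XX`. -/
noncomputable def emb (n : ℕ) : H →L[ℝ] XX :=
  (inc Fib n).comp ((toCLE n).symm : H →L[ℝ] Fib n)

lemma emb_apply (n : ℕ) (a : H) : emb n a = lp.single 2 n ((toH n).symm a) := rfl

lemma norm_emb (n : ℕ) (a : H) : ‖emb n a‖ = nrm n a := by
  rw [emb_apply, lp.norm_single (by norm_num), norm_fib]
  simp

/-- The unit vectors of `H`. -/
noncomputable def ee (l : List ℕ) : H := lp.single 2 l (1 : ℝ)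

lemma ee_apply (l t : List ℕ) : ee l t = if t = l then 1 else 0 := by
  simp only [ee, lp.coeFn_single, Pi.single_apply]

lemma inner_ee_right (f : H) (l : List ℕ) : inner ℝ f (ee l) = f l := by
  rw [ee, lp.inner_single_right]
  simp

lemma norm_ee (l : List ℕ) : ‖ee l‖ = 1 := by
  rw [ee, lp.norm_single (by norm_num)]
  simp

lemma pathSum_ee (l t : List ℕ) : pathSum (ee l) t = if l <:+ t then 1 else 0 := by
  induction t with
  | nil =>
    simp only [pathSum_nil, ee_apply]
    by_cases h : l = []
    · simp [h]
    · have : ¬ l <:+ [] := by simpa using h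
      simp [this, Ne.symm h]
  | cons a t ih =>
    simp only [pathSum_cons, ih, ee_apply, List.suffix_cons_iff]
    by_cases h : l = a :: t
    · subst h
      have : ¬ (a :: t) <:+ t := fun hs => by
        have := hs.length_le
        simp at this
      simp [this]
    · by_cases h2 : l <:+ t
      · simp [h, h2, Ne.symm h]
      · simp [h, h2, Ne.symm h]

lemma ee_mem_W (n : ℕ) (l : List ℕ) : ee l ∈ W n := by
  refine ⟨(norm_ee l).le, fun t _ => ?_⟩
  rw [pathSum_ee]
  split_ifs <;> simp

lemma nrm_ee (n : ℕ) (l : List ℕ) : nrm n (ee l) = 1 := by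
  apply le_antisymm
  · simpa [norm_ee] using nrm_le_norm n (ee l)
  · have := inner_le_nrm (ee_mem_W n l) (ee l)
    rwa [inner_ee_right, ee_apply, if_pos rfl] at this

/-- The basis vectors of `XX`. -/
noncomputable def node (n : ℕ) (l : List ℕ) : XX := emb n (ee l)

lemma norm_node (n : ℕ) (l : List ℕ) : ‖node n l‖ = 1 := by
  rw [node, norm_emb, nrm_ee]

/-- The sum of the unit vectors along the path from the root to `l`. -/
noncomputable def chainH : List ℕ → H
  | [] => ee []
  | a :: l => chainH l + ee (a :: l)

lemma inner_chainH (f : H) (l : List ℕ) : inner ℝ f (chainH l) = pathSum f l := by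
  induction l with
  | nil => simp [chainH, inner_ee_right]
  | cons a l ih =>
    simp only [chainH, pathSum_cons, inner_add_right, ih, inner_ee_right]
    ring

lemma nrm_chainH_le {n : ℕ} {l : List ℕ} (hl : l.length ≤ n) : nrm n (chainH l) ≤ 1 :=
  nrm_le_iff fun f hf => by
    rw [inner_chainH]
    exact (le_abs_self _).trans (hf.2 l hl)

/-- The path vectors of `XX`. -/
noncomputable def pathV (n : ℕ) (l : List ℕ) : XX := emb n (chainH l)

lemma pathV_nil (n : ℕ) : pathV n [] = node n [] := rfl

lemma pathV_cons (n a : ℕ) (l : List ℕ) : pathV n (a :: l) = pathV n l + node n (a :: l) := by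
  simp [pathV, node, chainH, map_add]

lemma norm_pathV_le {n : ℕ} {l : List ℕ} (hl : l.length ≤ n) : ‖pathV n l‖ ≤ 1 := by
  rw [pathV, norm_emb]
  exact nrm_chainH_le hl

/-- The children of a node form a weakly null sequence. -/
lemma node_weakly_null (n : ℕ) (l : List ℕ) (φ : StrongDual ℝ XX) :
    Tendsto (fun a => φ (node n (a :: l))) atTop (𝓝 0) := by
  -- Riesz representation of the restriction of `φ` to `H`
  set g : H := (InnerProductSpace.toDual ℝ H).symm (φ.comp (emb n)) with hg
  have h1 : ∀ t, φ (node n t) = g t := by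
    intro t
    have : inner ℝ g (ee t) = (φ.comp (emb n)) (ee t) := by
      rw [hg, InnerProductSpace.toDual_symm_apply]
    rw [inner_ee_right] at this
    rw [this]
    rfl
  simp only [h1]
  have h2 : Tendsto (fun t => (g t) ^ 2) cofinite (𝓝 0) := (summable_sq g).tendsto_cofinite_zero
  have h3 : Tendsto (fun t => |g t|) cofinite (𝓝 0) := by
    have := h2.sqrt
    simpa [Real.sqrt_sq_eq_abs] using this
  have h4 : Tendsto (fun t => g t) cofinite (𝓝 0) :=
    (tendsto_zero_iff_abs_tendsto_zero _).mpr h3
  have hinj : Function.Injective (fun a : ℕ => a :: l) := fun a b h => by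
    simpa using h
  have h5 := h4.comp hinj.tendsto_cofinite
  rwa [Nat.cofinite_eq_atTop] at h5

/-- **No equivalent asymptotically uniformly convex norm on `XX`.** -/
theorem not_auc_XX : ¬ ∃ N : XX → ℝ, IsEquivNorm N ∧ IsAUC N := by
  rintro ⟨N, hN, hA⟩
  exact not_auc_of_tree hN hA node norm_node node_weakly_null pathV pathV_nil pathV_cons
    (fun _ _ hl => norm_pathV_le hl)

/-- The coordinates on `XX`. -/
noncomputable def coord (n : ℕ) (l : List ℕ) : StrongDual ℝ XX :=
  (lp.evalCLM ℝ (fun _ : List ℕ => ℝ) 2 l).comp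
    (((toCLE n : Fib n →L[ℝ] H)).comp (prj Fib n))

lemma coord_apply (n : ℕ) (l : List ℕ) (y : XX) : coord n l y = toH n (y n) l := rfl

lemma coord_node (n : ℕ) (l : List ℕ) (m : ℕ) (k : List ℕ) :
    coord n l (node m k) = if n = m ∧ l = k then 1 else 0 := by
  rw [coord_apply, node, emb_apply]
  by_cases h : n = m
  · subst h
    rw [lp.single_apply_self]
    simp only [LinearEquiv.apply_symm_apply, ee_apply, true_and]
  · rw [lp.single_apply_ne _ _ _ h]
    simp [h]

lemma not_finiteDimensional_XX : ¬ FiniteDimensional ℝ XX := by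
  intro hfin
  have hli : LinearIndependent ℝ (fun l : List ℕ => node 0 l) := by
    rw [linearIndependent_iff']
    intro s g hg i hi
    have := congrArg (coord 0 i) hg
    rw [map_sum, map_zero] at this
    simp only [map_smul, coord_node, smul_eq_mul, true_and, mul_ite, mul_one, mul_zero] at this
    rw [Finset.sum_ite_eq] at this
    simpa [hi] using this
  have := hli.finite
  exact not_finite (List ℕ)

end P069
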