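import Mathlib

/-!
# The tree norm

`H` is `ℓ²` of the tree of all finite lists of naturals; the parent of `a :: l` is `l`.
For a real function `f` on the tree, `pathSum f l` is the sum of `f` along the path from
the root `[]` to `l`.  The norm `nrm n` on `H` is the supremum of `inner f a` over all `f` in
the unit ball of `H` whose path sums up to height `n` are at most one in modulus.
-/

open scoped ENNReal

namespace P069

/-- `ℓ²` of the tree of lists of naturals. -/
abbrev H : Type := lp (fun _ : List ℕ => ℝ) 2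

/-- Sum of `f` along the path from the root to `l`. -/
def pathSum (f : List ℕ → ℝ) : List ℕ → ℝ
  | [] => f []
  | a :: l => f (a :: l) + pathSum f l

/-- Discrete derivative along the tree, the inverse of `pathSum`. -/
def D (N : List ℕ → ℝ) : List ℕ → ℝ
  | [] => N []
  | a :: l => N (a :: l) - N l

@[simp] lemma pathSum_nil (f : List ℕ → ℝ) : pathSum f [] = f [] := rfl
@[simp] lemma pathSum_cons (f : List ℕ → ℝ) (a : ℕ) (l : List ℕ) :
    pathSum f (a :: l) = f (a :: l) + pathSum f l := rfl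
@[simp] lemma D_nil (N : List ℕ → ℝ) : D N [] = N [] := rfl
@[simp] lemma D_cons (N : List ℕ → ℝ) (a : ℕ) (l : List ℕ) :
    D N (a :: l) = N (a :: l) - N l := rfl

lemma pathSum_D (N : List ℕ → ℝ) (l : List ℕ) : pathSum (D N) l = N l := by
  induction l with
  | nil => simp
  | cons a l ih => simp [ih]

lemma D_pathSum (f : List ℕ → ℝ) (l : List ℕ) : D (pathSum f) l = f l := by
  cases l with
  | nil => simp
  | cons a l => simp

lemma pathSum_smul (c : ℝ) (f : List ℕ → ℝ) (l : List ℕ) :
    pathSum (fun t => c * f t) l = c * pathSum f l := by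
  induction l with
  | nil => simp
  | cons a l ih => simp [ih]; ring

lemma pathSum_add (f g : List ℕ → ℝ) (l : List ℕ) :
    pathSum (fun t => f t + g t) l = pathSum f l + pathSum g l := by
  induction l with
  | nil => simp
  | cons a l ih => simp [ih]; ring

/-! ### Elementary facts on `H` -/

lemma inner_eq (f g : H) : inner ℝ f g = ∑' l, f l * g l := by
  rw [lp.inner_eq_tsum]
  refine tsum_congr fun l => ?_
  simp [mul_comm]

lemma summable_mul (f g : H) : Summable fun l => f l * g l := by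
  have := lp.summable_inner (𝕜 := ℝ) f g
  refine this.congr fun l => ?_
  simp [mul_comm]

lemma inner_congr {u w x : H} (h : ∀ l, u l * x l = w l * x l) : inner ℝ u x = inner ℝ w x := by
  rw [inner_eq, inner_eq]
  exact tsum_congr h

lemma summable_sq (f : H) : Summable fun l => (f l) ^ 2 := by
  have := lp.summable_inner (𝕜 := ℝ) f f
  refine this.congr fun l => ?_
  simp [sq]

lemma norm_sq_eq (f : H) : ‖f‖ ^ 2 = ∑' l, (f l) ^ 2 := by
  rw [← real_inner_self_eq_norm_sq, inner_eq]
  exact tsum_congr fun l => by ring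

/-- An element of `H` from a square-summable function. -/
noncomputable def mkH (g : List ℕ → ℝ) (hg : Summable fun l => (g l) ^ 2) : H :=
  ⟨g, by
    refine memℓp_gen ?_
    refine hg.congr fun l => ?_
    simp⟩

@[simp] lemma mkH_apply (g : List ℕ → ℝ) (hg : Summable fun l => (g l) ^ 2) (l : List ℕ) :
    mkH g hg l = g l := rfl

/-! ### The norm -/

/-- The set of test functions of height `n`. -/
def W (n : ℕ) : Set H := {f | ‖f‖ ≤ 1 ∧ ∀ l : List ℕ, l.length ≤ n → |pathSum f l| ≤ 1}

/-- The tree norm of height `n`. -/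
noncomputable def nrm (n : ℕ) (a : H) : ℝ := sSup ((fun f : H => inner ℝ f a) '' W n)

lemma pathSum_zero (l : List ℕ) : pathSum (0 : List ℕ → ℝ) l = 0 := by
  induction l with
  | nil => simp
  | cons a l ih => simp [ih]

lemma zero_mem_W (n : ℕ) : (0 : H) ∈ W n := by
  refine ⟨by simp, fun l _ => ?_⟩
  have h : pathSum ((0 : H) : List ℕ → ℝ) l = 0 := pathSum_zero l
  rw [h]
  simp

lemma inner_le_norm_of_mem {n : ℕ} {f : H} (hf : f ∈ W n) (a : H) : inner ℝ f a ≤ ‖a‖ := by
  calc inner ℝ f a ≤ ‖f‖ * ‖a‖ := real_inner_le_norm f a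
    _ ≤ 1 * ‖a‖ := by gcongr; exact hf.1
    _ = ‖a‖ := one_mul _

lemma bddAbove_img (n : ℕ) (a : H) : BddAbove ((fun f : H => inner ℝ f a) '' W n) := by
  refine ⟨‖a‖, ?_⟩
  rintro _ ⟨f, hf, rfl⟩
  exact inner_le_norm_of_mem hf a

lemma img_nonempty (n : ℕ) (a : H) : ((fun f : H => inner ℝ f a) '' W n).Nonempty :=
  ⟨_, 0, zero_mem_W n, rfl⟩

lemma inner_le_nrm {n : ℕ} {f : H} (hf : f ∈ W n) (a : H) : inner ℝ f a ≤ nrm n a :=
  le_csSup (bddAbove_img n a) ⟨f, hf, rfl⟩

lemma nrm_le_iff {n : ℕ} {a : H} {C : ℝ} (h : ∀ f ∈ W n, inner ℝ f a ≤ C) : nrm n a ≤ C := by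
  refine csSup_le (img_nonempty n a) ?_
  rintro _ ⟨f, hf, rfl⟩
  exact h f hf

lemma nrm_le_norm (n : ℕ) (a : H) : nrm n a ≤ ‖a‖ :=
  nrm_le_iff fun _ hf => inner_le_norm_of_mem hf a

lemma nrm_nonneg (n : ℕ) (a : H) : 0 ≤ nrm n a := by
  have := inner_le_nrm (zero_mem_W n) a
  simpa using this

/-- A test function of size `μ`. -/
lemma test_le {n : ℕ} {g : H} {μ : ℝ} (hμ : 0 < μ) (h1 : ‖g‖ ≤ μ)
    (h2 : ∀ l : List ℕ, l.length ≤ n → |pathSum g l| ≤ μ) (z : H) :
    inner ℝ g z ≤ μ * nrm n z := by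
  have hmem : (μ⁻¹ • g) ∈ W n := by
    have hμ' : 0 < μ⁻¹ := inv_pos.mpr hμ
    refine ⟨?_, fun l hl => ?_⟩
    · rw [norm_smul, Real.norm_of_nonneg hμ'.le]
      calc μ⁻¹ * ‖g‖ ≤ μ⁻¹ * μ := by gcongr
        _ = 1 := inv_mul_cancel₀ hμ.ne'
    · have : pathSum ((μ⁻¹ • g : H) : List ℕ → ℝ) l = μ⁻¹ * pathSum g l := by
        rw [← pathSum_smul]
        congr 1
      rw [this, abs_mul, abs_of_pos hμ']
      calc μ⁻¹ * |pathSum g l| ≤ μ⁻¹ * μ := by gcongr; exact h2 l hl
        _ = 1 := inv_mul_cancel₀ hμ.ne'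
  have := inner_le_nrm hmem z
  rw [real_inner_smul_left] at this
  have h3 : inner ℝ g z = μ * (μ⁻¹ * inner ℝ g z) := by
    field_simp
  rw [h3]
  gcongr

lemma abs_apply_le (f : H) (l : List ℕ) : |f l| ≤ ‖f‖ := by
  have := lp.norm_apply_le_norm (E := fun _ : List ℕ => ℝ) (p := 2) (by norm_num) f l
  simpa using this

lemma abs_pathSum_le (f : H) (l : List ℕ) : |pathSum f l| ≤ (l.length + 1) * ‖f‖ := by
  induction l with
  | nil => simpa using abs_apply_le f []
  | cons a l ih =>
    simp only [pathSum_cons, List.length_cons]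
    push_cast
    calc |f (a :: l) + pathSum f l| ≤ |f (a :: l)| + |pathSum f l| := abs_add_le _ _
      _ ≤ ‖f‖ + (l.length + 1) * ‖f‖ := add_le_add (abs_apply_le f _) ih
      _ = _ := by ring

/-- The tree norm is equivalent to the `ℓ²` norm. -/
lemma norm_le_nrm (n : ℕ) (a : H) : ‖a‖ ≤ (n + 1) * nrm n a := by
  by_cases ha : a = 0
  · subst ha
    have := nrm_nonneg n 0
    simp only [norm_zero]
    positivity
  have hpos : 0 < ‖a‖ := norm_pos_iff.mpr ha
  have hn : (0 : ℝ) < n + 1 := by positivity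
  have := test_le (n := n) (g := a) (μ := (n + 1) * ‖a‖) (by positivity) ?_ ?_ a
  · rw [real_inner_self_eq_norm_sq] at this
    have h2 : ‖a‖ * ‖a‖ ≤ ‖a‖ * ((n + 1) * nrm n a) := by nlinarith
    exact le_of_mul_le_mul_left h2 hpos
  · have : (1 : ℝ) ≤ n + 1 := by
      have : (0 : ℝ) ≤ n := Nat.cast_nonneg n
      linarith
    nlinarith
  · intro l hl
    refine (abs_pathSum_le a l).trans ?_
    have : ((l.length : ℝ) + 1) ≤ n + 1 := by
      have : (l.length : ℝ) ≤ n := by exact_mod_cast hl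
      linarith
    gcongr

lemma nrm_add_le (n : ℕ) (a b : H) : nrm n (a + b) ≤ nrm n a + nrm n b :=
  nrm_le_iff fun f hf => by
    rw [inner_add_right]
    exact add_le_add (inner_le_nrm hf a) (inner_le_nrm hf b)

lemma neg_mem_W {n : ℕ} {f : H} (hf : f ∈ W n) : -f ∈ W n := by
  refine ⟨by simpa using hf.1, fun l hl => ?_⟩
  have : pathSum ((-f : H) : List ℕ → ℝ) l = - pathSum f l := by
    have h := pathSum_smul (-1) f l
    simp only [neg_mul, one_mul] at h
    rw [← h]
    congr 1
  rw [this, abs_neg]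
  exact hf.2 l hl

lemma nrm_smul_le (n : ℕ) (r : ℝ) (a : H) : nrm n (r • a) ≤ |r| * nrm n a :=
  nrm_le_iff fun f hf => by
    rw [real_inner_smul_right]
    rcases le_total 0 r with hr | hr
    · rw [abs_of_nonneg hr]
      exact mul_le_mul_of_nonneg_left (inner_le_nrm hf a) hr
    · rw [abs_of_nonpos hr]
      have := inner_le_nrm (neg_mem_W hf) a
      rw [inner_neg_left] at this
      nlinarith

lemma nrm_neg (n : ℕ) (a : H) : nrm n (-a) = nrm n a := by
  apply le_antisymm
  · have := nrm_smul_le n (-1) a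
    simpa using this
  · have := nrm_smul_le n (-1) (-a)
    simpa using this

lemma nrm_zero (n : ℕ) : nrm n 0 = 0 := by
  have := nrm_le_norm n 0
  have h2 := nrm_nonneg n 0
  simp only [norm_zero] at this
  linarith

lemma eq_zero_of_nrm (n : ℕ) {a : H} (h : nrm n a = 0) : a = 0 := by
  have := norm_le_nrm n a
  rw [h, mul_zero] at this
  exact norm_le_zero_iff.mp this

/-! ### The main inequality -/

section KI

open Classical

variable {n : ℕ} (S : List ℕ → Prop) (hS : ∀ a l, S (a :: l) → S l)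

/-- restriction of `f` to `S` -/
noncomputable def resIn (f : List ℕ → ℝ) (l : List ℕ) : ℝ := if S l then f l else 0
/-- restriction of `f` to the complement of `S` -/
noncomputable def resOut (f : List ℕ → ℝ) (l : List ℕ) : ℝ := if S l then 0 else f l

include hS in
lemma pathSum_resIn_of_mem (f : List ℕ → ℝ) {l : List ℕ} (hl : S l) :
    pathSum (resIn S f) l = pathSum f l := by
  induction l with
  | nil => simp [resIn, hl]
  | cons a l ih =>
    simp only [pathSum_cons, resIn, if_pos hl]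
    rw [ih (hS a l hl)]

include hS in
lemma abs_pathSum_resIn_le (f : List ℕ → ℝ)
    (hf : ∀ l : List ℕ, l.length ≤ n → |pathSum f l| ≤ 1) {l : List ℕ} (hl : l.length ≤ n) :
    |pathSum (resIn S f) l| ≤ 1 := by
  induction l with
  | nil =>
    by_cases h : S []
    · rw [pathSum_resIn_of_mem S hS f h]
      exact hf _ hl
    · simp [resIn, h]
  | cons a l ih =>
    by_cases h : S (a :: l)
    · rw [pathSum_resIn_of_mem S hS f h]
      exact hf _ hl
    · simp only [pathSum_cons, resIn, if_neg h, zero_add]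
      exact ih (by simp only [List.length_cons] at hl; omega)

include hS in
lemma pathSum_resOut_of_mem (f : List ℕ → ℝ) {l : List ℕ} (hl : S l) :
    pathSum (resOut S f) l = 0 := by
  induction l with
  | nil => simp [resOut, hl]
  | cons a l ih =>
    simp only [pathSum_cons, resOut, if_pos hl, zero_add]
    exact ih (hS a l hl)

lemma resIn_add_resOut (f : List ℕ → ℝ) (l : List ℕ) : resIn S f l + resOut S f l = f l := by
  by_cases h : S l <;> simp [resIn, resOut, h]

include hS in
lemma abs_pathSum_resOut_le (f : List ℕ → ℝ)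
    (hf : ∀ l : List ℕ, l.length ≤ n → |pathSum f l| ≤ 1) {l : List ℕ} (hl : l.length ≤ n) :
    |pathSum (resOut S f) l| ≤ 2 := by
  have h1 : pathSum f l = pathSum (resIn S f) l + pathSum (resOut S f) l := by
    rw [← pathSum_add]
    congr 1
    funext t
    exact (resIn_add_resOut S f t).symm
  have h2 := hf l hl
  have h3 := abs_pathSum_resIn_le S hS f hf hl
  rw [h1] at h2
  rw [abs_le] at *
  constructor <;> linarith [h2.1, h2.2, h3.1, h3.2]

/-- one-sided truncation: towards the side where the exit value has room -/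
noncomputable def tr1 (v r : ℝ) : ℝ := if 0 ≤ v then min r 0 else max r 0
/-- the complementary truncation -/
noncomputable def tr2 (v r : ℝ) : ℝ := if 0 ≤ v then max r 0 else min r 0

lemma tr1_add_tr2 (v r : ℝ) : tr1 v r + tr2 v r = r := by
  unfold tr1 tr2
  split_ifs
  · exact min_add_max r 0 |>.trans (by simp)
  · rw [add_comm]; exact min_add_max r 0 |>.trans (by simp)

lemma abs_min_sub_le (a b : ℝ) : |min a 0 - min b 0| ≤ |a - b| := by
  have := abs_min_sub_min_le_max a 0 b 0
  simpa using this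

lemma abs_max_sub_le (a b : ℝ) : |max a 0 - max b 0| ≤ |a - b| := by
  have := abs_max_sub_max_le_max a 0 b 0
  simpa using this

lemma abs_tr1_sub_le (v a b : ℝ) : |tr1 v a - tr1 v b| ≤ |a - b| := by
  unfold tr1
  split_ifs
  · exact abs_min_sub_le a b
  · exact abs_max_sub_le a b

lemma abs_tr2_sub_le (v a b : ℝ) : |tr2 v a - tr2 v b| ≤ |a - b| := by
  unfold tr2
  split_ifs
  · exact abs_max_sub_le a b
  · exact abs_min_sub_le a b

lemma tr1_zero (v : ℝ) : tr1 v 0 = 0 := by unfold tr1; split_ifs <;> simp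
lemma tr2_zero (v : ℝ) : tr2 v 0 = 0 := by unfold tr2; split_ifs <;> simp

/-- bounds that keep the new path sums in `[-1,1]` -/
lemma abs_add_tr1_le {v r c : ℝ} (hv : |v| ≤ 1) (hr : |r| ≤ 2) (hc : 0 ≤ c) (hc' : c ≤ 1 / 2) :
    |v + c * tr1 v r| ≤ 1 := by
  rw [abs_le] at hv hr ⊢
  unfold tr1
  split_ifs with h
  · have h1 : min r 0 ≤ 0 := min_le_right _ _
    have h2 : -2 ≤ min r 0 := le_min hr.1 (by norm_num)
    constructor <;> nlinarith
  · have h1 : 0 ≤ max r 0 := le_max_right _ _
    have h2 : max r 0 ≤ 2 := max_le hr.2 (by norm_num)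
    push Not at h
    constructor <;> nlinarith

lemma abs_sub_tr2_le {v r c : ℝ} (hv : |v| ≤ 1) (hr : |r| ≤ 2) (hc : 0 ≤ c) (hc' : c ≤ 1 / 2) :
    |v + c * (- tr2 v r)| ≤ 1 := by
  rw [abs_le] at hv hr ⊢
  unfold tr2
  split_ifs with h
  · have h1 : 0 ≤ max r 0 := le_max_right _ _
    have h2 : max r 0 ≤ 2 := max_le hr.2 (by norm_num)
    constructor <;> nlinarith
  · have h1 : min r 0 ≤ 0 := min_le_right _ _
    have h2 : -2 ≤ min r 0 := le_min hr.1 (by norm_num)
    push Not at h
    constructor <;> nlinarith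

variable (f h : H) (c : ℝ) (T : ℝ → ℝ → ℝ)

/-- The new path-sum function. -/
noncomputable def newPath (l : List ℕ) : ℝ :=
  pathSum (resIn S f) l + c * T (pathSum (resIn S f) l) (pathSum (resOut S h) l)

/-- The truncated path function. -/
noncomputable def truncPath (l : List ℕ) : ℝ :=
  T (pathSum (resIn S f) l) (pathSum (resOut S h) l)

lemma D_newPath (l : List ℕ) :
    D (newPath S f h c T) l = resIn S f l + c * D (truncPath S f h T) l := by
  cases l with
  | nil => simp [newPath, truncPath]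
  | cons a l =>
    simp only [D_cons, newPath, truncPath, pathSum_cons]
    ring

include hS in
lemma D_truncPath_of_mem (hT0 : ∀ v, T v 0 = 0) {l : List ℕ} (hl : S l) :
    D (truncPath S f h T) l = 0 := by
  cases l with
  | nil =>
    simp only [D_nil, truncPath]
    rw [pathSum_resOut_of_mem S hS _ hl, hT0]
  | cons a l =>
    simp only [D_cons, truncPath]
    rw [pathSum_resOut_of_mem S hS _ hl, pathSum_resOut_of_mem S hS _ (hS a l hl), hT0, hT0,
      sub_zero]

lemma abs_D_truncPath_of_not_mem (hT0 : ∀ v, T v 0 = 0)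
    (hT : ∀ v a b, |T v a - T v b| ≤ |a - b|) {l : List ℕ} (hl : ¬ S l) :
    |D (truncPath S f h T) l| ≤ |h l| := by
  cases l with
  | nil =>
    simp only [D_nil, truncPath, pathSum_nil, resOut, if_neg hl]
    have := hT (resIn S f []) (h []) 0
    rwa [hT0, sub_zero, sub_zero] at this
  | cons a l =>
    simp only [D_cons, truncPath]
    have h1 : pathSum (resIn S f) (a :: l) = pathSum (resIn S f) l := by
      simp [resIn, hl]
    have h2 : pathSum (resOut S h) (a :: l) = h (a :: l) + pathSum (resOut S h) l := by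
      simp [resOut, hl]
    rw [h1, h2]
    have := hT (pathSum (resIn S f) l) (h (a :: l) + pathSum (resOut S h) l)
      (pathSum (resOut S h) l)
    simpa using this

include hS in
lemma D_newPath_of_mem (hT0 : ∀ v, T v 0 = 0) {l : List ℕ} (hl : S l) :
    D (newPath S f h c T) l = f l := by
  rw [D_newPath, D_truncPath_of_mem S hS f h T hT0 hl]
  simp [resIn, hl]

lemma abs_D_newPath_of_not_mem (hc : 0 ≤ c) (hT0 : ∀ v, T v 0 = 0)
    (hT : ∀ v a b, |T v a - T v b| ≤ |a - b|) {l : List ℕ} (hl : ¬ S l) :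
    |D (newPath S f h c T) l| ≤ c * |h l| := by
  rw [D_newPath]
  simp only [resIn, if_neg hl, zero_add, abs_mul, abs_of_nonneg hc]
  exact mul_le_mul_of_nonneg_left (abs_D_truncPath_of_not_mem S f h T hT0 hT hl) hc

include hS in
lemma sq_D_newPath_le (hc : 0 ≤ c) (hT0 : ∀ v, T v 0 = 0)
    (hT : ∀ v a b, |T v a - T v b| ≤ |a - b|) (l : List ℕ) :
    (D (newPath S f h c T) l) ^ 2 ≤ (f l) ^ 2 + c ^ 2 * (h l) ^ 2 := by
  by_cases hl : S l
  · rw [D_newPath_of_mem S hS f h c T hT0 hl]
    nlinarith [sq_nonneg (h l), sq_nonneg c, mul_nonneg (sq_nonneg c) (sq_nonneg (h l))]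
  · have := abs_D_newPath_of_not_mem S f h c T hc hT0 hT hl
    have h2 : (D (newPath S f h c T) l) ^ 2 ≤ (c * |h l|) ^ 2 := by
      rw [← sq_abs (D (newPath S f h c T) l)]
      gcongr
    rw [mul_pow, sq_abs] at h2
    nlinarith [sq_nonneg (f l)]

include hS in
lemma summable_D_newPath (hc : 0 ≤ c) (hT0 : ∀ v, T v 0 = 0)
    (hT : ∀ v a b, |T v a - T v b| ≤ |a - b|) :
    Summable fun l => (D (newPath S f h c T) l) ^ 2 := by
  refine Summable.of_nonneg_of_le (fun _ => sq_nonneg _)
    (sq_D_newPath_le S hS f h c T hc hT0 hT) ?_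
  exact (summable_sq f).add ((summable_sq h).mul_left _)

/-- The new test function, as an element of `H`. -/
noncomputable def newTest (hc : 0 ≤ c) (hT0 : ∀ v, T v 0 = 0)
    (hT : ∀ v a b, |T v a - T v b| ≤ |a - b|) : H :=
  mkH (D (newPath S f h c T)) (summable_D_newPath S hS f h c T hc hT0 hT)

lemma norm_sq_newTest_le (hc : 0 ≤ c) (hT0 : ∀ v, T v 0 = 0)
    (hT : ∀ v a b, |T v a - T v b| ≤ |a - b|) :
    ‖newTest S hS f h c T hc hT0 hT‖ ^ 2 ≤ ‖f‖ ^ 2 + c ^ 2 * ‖h‖ ^ 2 := by
  rw [norm_sq_eq, norm_sq_eq, norm_sq_eq, ← tsum_mul_left,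
    ← (summable_sq f).tsum_add ((summable_sq h).mul_left _)]
  refine Summable.tsum_le_tsum (sq_D_newPath_le S hS f h c T hc hT0 hT)
    (summable_D_newPath S hS f h c T hc hT0 hT) ((summable_sq f).add ((summable_sq h).mul_left _))

lemma pathSum_newTest (hc : 0 ≤ c) (hT0 : ∀ v, T v 0 = 0)
    (hT : ∀ v a b, |T v a - T v b| ≤ |a - b|) (l : List ℕ) :
    pathSum (newTest S hS f h c T hc hT0 hT) l = newPath S f h c T l := by
  exact pathSum_D _ l

include hS in
/-- The key inequality in its linear form. -/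
lemma base_ineq {f h : H} (hf : f ∈ W n) (hh : h ∈ W n) {c : ℝ} (hc : 0 ≤ c) (hc' : c ≤ 1 / 2)
    {x y : H} (hx : ∀ l, ¬ S l → x l = 0) (hy : ∀ l, S l → y l = 0) :
    2 * inner ℝ f x + c * inner ℝ h y ≤
      Real.sqrt (1 + c ^ 2) * (nrm n (x + y) + nrm n (x - y)) := by
  -- the two truncations
  have h10 : ∀ v, tr1 v 0 = 0 := tr1_zero
  have h1L : ∀ v a b, |tr1 v a - tr1 v b| ≤ |a - b| := abs_tr1_sub_le
  have h20 : ∀ v, (fun v r => - tr2 v r) v 0 = 0 := fun v => by simp [tr2_zero]
  have h2L : ∀ v a b, |(fun v r => - tr2 v r) v a - (fun v r => - tr2 v r) v b| ≤ |a - b| := by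
    intro v a b
    have := abs_tr2_sub_le v a b
    rw [← abs_neg] at this
    simpa [sub_eq_add_neg, add_comm] using this
  set T1 : ℝ → ℝ → ℝ := tr1 with hT1
  set T2 : ℝ → ℝ → ℝ := fun v r => - tr2 v r with hT2
  set G1 : H := newTest S hS f h c T1 hc h10 h1L with hG1
  set G2 : H := newTest S hS f h c T2 hc h20 h2L with hG2
  set μ : ℝ := Real.sqrt (1 + c ^ 2) with hμ
  have hμ1 : 1 ≤ μ := by
    rw [hμ]
    exact Real.one_le_sqrt.mpr (by nlinarith [sq_nonneg c])
  have hμ0 : 0 < μ := by linarith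
  have hμsq : μ ^ 2 = 1 + c ^ 2 := Real.sq_sqrt (by positivity)
  have hf1 : ‖f‖ ≤ 1 := hf.1
  have hh1 : ‖h‖ ≤ 1 := hh.1
  have hnormle : ∀ G : H, ‖G‖ ^ 2 ≤ ‖f‖ ^ 2 + c ^ 2 * ‖h‖ ^ 2 → ‖G‖ ≤ μ := by
    intro G hG
    have h3 : ‖f‖ ^ 2 ≤ 1 := by nlinarith [norm_nonneg f]
    have h4 : ‖h‖ ^ 2 ≤ 1 := by nlinarith [norm_nonneg h]
    have h5 : ‖G‖ ^ 2 ≤ μ ^ 2 := by
      rw [hμsq]
      nlinarith [sq_nonneg c]
    exact abs_le_of_sq_le_sq' h5 hμ0.le |>.2
  have hG1n : ‖G1‖ ≤ μ := hnormle _ (norm_sq_newTest_le S hS f h c T1 hc h10 h1L)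
  have hG2n : ‖G2‖ ≤ μ := hnormle _ (norm_sq_newTest_le S hS f h c T2 hc h20 h2L)
  have hv : ∀ l : List ℕ, l.length ≤ n → |pathSum (resIn S f) l| ≤ 1 := fun l hl =>
    abs_pathSum_resIn_le S hS f hf.2 hl
  have hR : ∀ l : List ℕ, l.length ≤ n → |pathSum (resOut S h) l| ≤ 2 := fun l hl =>
    abs_pathSum_resOut_le S hS h hh.2 hl
  have hG1p : ∀ l : List ℕ, l.length ≤ n → |pathSum G1 l| ≤ μ := by
    intro l hl
    rw [hG1, pathSum_newTest]
    exact (abs_add_tr1_le (hv l hl) (hR l hl) hc hc').trans hμ1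
  have hG2p : ∀ l : List ℕ, l.length ≤ n → |pathSum G2 l| ≤ μ := by
    intro l hl
    rw [hG2, pathSum_newTest]
    exact (abs_sub_tr2_le (hv l hl) (hR l hl) hc hc').trans hμ1
  have e1 := test_le hμ0 hG1n hG1p (x + y)
  have e2 := test_le hμ0 hG2n hG2p (x - y)
  -- pairings
  have hG1x : inner ℝ G1 x = inner ℝ f x := by
    refine inner_congr fun l => ?_
    by_cases hl : S l
    · congr 1
      exact D_newPath_of_mem S hS f h c T1 h10 hl
    · rw [hx l hl]; simp
  have hG2x : inner ℝ G2 x = inner ℝ f x := by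
    refine inner_congr fun l => ?_
    by_cases hl : S l
    · congr 1
      exact D_newPath_of_mem S hS f h c T2 h20 hl
    · rw [hx l hl]; simp
  have hGy : inner ℝ G1 y - inner ℝ G2 y = c * inner ℝ h y := by
    rw [← inner_sub_left, ← real_inner_smul_left]
    refine inner_congr fun l => ?_
    by_cases hl : S l
    · rw [hy l hl]; simp
    · congr 1
      have e : (G1 - G2) l = D (newPath S f h c T1) l - D (newPath S f h c T2) l := rfl
      rw [e, D_newPath, D_newPath]
      have e3 : D (truncPath S f h T1) l - D (truncPath S f h T2) l = h l := by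
        cases l with
        | nil =>
          simp only [D_nil, truncPath, hT1, hT2, sub_neg_eq_add, tr1_add_tr2, pathSum_nil, resOut,
            if_neg hl]
        | cons a l =>
          simp only [D_cons, truncPath, hT1, hT2]
          have h1 := tr1_add_tr2 (pathSum (resIn S ⇑f) (a :: l)) (pathSum (resOut S ⇑h) (a :: l))
          have h2 := tr1_add_tr2 (pathSum (resIn S ⇑f) l) (pathSum (resOut S ⇑h) l)
          have h3 : pathSum (resOut S ⇑h) (a :: l) = h (a :: l) + pathSum (resOut S ⇑h) l := by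
            simp [resOut, hl]
          linarith
      have e4 : (c • h) l = c * h l := rfl
      rw [e4, ← e3]
      ring
  rw [inner_add_right] at e1
  rw [inner_sub_right] at e2
  rw [hG1x] at e1
  rw [hG2x] at e2
  nlinarith

include hS in
/-- The key inequality with both suprema taken. -/
lemma base_ineq' {c : ℝ} (hc : 0 ≤ c) (hc' : c ≤ 1 / 2)
    {x y : H} (hx : ∀ l, ¬ S l → x l = 0) (hy : ∀ l, S l → y l = 0) :
    2 * nrm n x + c * nrm n y ≤ Real.sqrt (1 + c ^ 2) * (nrm n (x + y) + nrm n (x - y)) := by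
  set B := Real.sqrt (1 + c ^ 2) * (nrm n (x + y) + nrm n (x - y)) with hB
  -- first the supremum over `f`
  have step1 : ∀ h ∈ W n, 2 * nrm n x + c * inner ℝ h y ≤ B := by
    intro h hh
    have : nrm n x ≤ (B - c * inner ℝ h y) / 2 := by
      refine nrm_le_iff fun f hf => ?_
      have := base_ineq (n := n) S hS hf hh hc hc' hx hy
      linarith
    linarith
  rcases eq_or_lt_of_le hc with hc0 | hcpos
  · have := step1 0 (zero_mem_W n)
    subst hc0
    simpa using this
  · have : nrm n y ≤ (B - 2 * nrm n x) / c := by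
      refine nrm_le_iff fun h hh => ?_
      rw [le_div_iff₀ hcpos]
      have := step1 h hh
      linarith
    rw [le_div_iff₀ hcpos] at this
    linarith

include hS in
/-- **Key inequality**: a vector beyond a prefix-closed set adds to the square of the norm
on average over the two signs. -/
theorem key_ineq {x y : H} (hx : ∀ l, ¬ S l → x l = 0) (hy : ∀ l, S l → y l = 0) :
    2 * nrm n x ^ 2 + nrm n y ^ 2 / 10 ≤ nrm n (x + y) ^ 2 + nrm n (x - y) ^ 2 := by
  set a := nrm n x with ha
  set b := nrm n y with hb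
  set A := nrm n (x + y) with hA
  set B := nrm n (x - y) with hB
  have ha0 : 0 ≤ a := nrm_nonneg n x
  have hb0 : 0 ≤ b := nrm_nonneg n y
  have hA0 : 0 ≤ A := nrm_nonneg n _
  have hB0 : 0 ≤ B := nrm_nonneg n _
  -- the squared form of the base inequality
  have main : ∀ c : ℝ, 0 ≤ c → c ≤ 1 / 2 → (2 * a + c * b) ^ 2 ≤ (1 + c ^ 2) * (A + B) ^ 2 := by
    intro c hc hc'
    have := base_ineq' (n := n) S hS hc hc' hx hy
    have h1 : 0 ≤ 2 * a + c * b := by positivity
    have h2 := pow_le_pow_left₀ h1 this 2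
    rw [mul_pow, Real.sq_sqrt (by positivity)] at h2
    exact h2
  have hAB : (A + B) ^ 2 ≤ 2 * (A ^ 2 + B ^ 2) := by nlinarith [sq_nonneg (A - B)]
  rcases le_or_gt b a with hba | hba
  · -- small `y`
    rcases eq_or_lt_of_le ha0 with h0 | hpos
    · have hb' : b = 0 := by linarith
      rw [← h0, hb']
      have := sq_nonneg A
      have := sq_nonneg B
      norm_num
      positivity
    · have hc1 : 0 ≤ b / (2 * a) := by positivity
      have hc2 : b / (2 * a) ≤ 1 / 2 := by
        rw [div_le_div_iff₀ (by positivity) (by norm_num)]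
        linarith
      have := main (b / (2 * a)) hc1 hc2
      have e1 : 2 * a + b / (2 * a) * b = 2 * a * (1 + (b / (2 * a)) ^ 2) := by
        field_simp
      rw [e1] at this
      set s := (b / (2 * a)) ^ 2 with hs
      have hs0 : 0 ≤ s := by positivity
      have e2 : (2 * a * (1 + s)) ^ 2 = (1 + s) * ((1 + s) * (2 * a) ^ 2) := by ring
      rw [e2] at this
      have h3 : (1 + s) * (2 * a) ^ 2 ≤ (A + B) ^ 2 :=
        le_of_mul_le_mul_left this (by positivity)
      have e3 : s * (2 * a) ^ 2 = b ^ 2 := by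
        rw [hs]; field_simp
      nlinarith [sq_nonneg b]
  · -- large `y`
    have := main (1 / 2) (by norm_num) le_rfl
    nlinarith [sq_nonneg b, mul_nonneg ha0 hb0, mul_nonneg ha0 (sub_nonneg.mpr hba.le)]

end KI

end P069
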